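import Vale.Agent.P183.R2.H668.KW.Spec

set_option autoImplicit false

namespace Vale.Agent.P183.R2.H652.KW

open Finset Vale.Agent.P183.R2.H668.KW

theorem choose_exp (R j : ℕ) (a : ℝ) (ha : 0 ≤ a) :
    (R.choose j : ℝ) * a ^ j ≤ Real.exp (a * R) := by
  rcases Nat.lt_or_ge R j with h | h
  · rw [Nat.choose_eq_zero_of_lt h]
    simp only [Nat.cast_zero, zero_mul]
    exact (Real.exp_pos _).le
  · have h1 : (a + 1) ^ R = ∑ m ∈ range (R + 1), a ^ m * 1 ^ (R - m) * (R.choose m : ℝ) :=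
      add_pow a 1 R
    have h2 : a ^ j * 1 ^ (R - j) * (R.choose j : ℝ) ≤
        ∑ m ∈ range (R + 1), a ^ m * 1 ^ (R - m) * (R.choose m : ℝ) :=
      single_le_sum (f := fun m => a ^ m * 1 ^ (R - m) * (R.choose m : ℝ))
        (fun i _ => by positivity) (mem_range.2 (by omega))
    have h3 : (a + 1) ^ R ≤ Real.exp (a * R) := by
      calc (a + 1) ^ R ≤ (Real.exp a) ^ R := by
            gcongr
            exact Real.add_one_le_exp a
        _ = Real.exp (a * R) := by rw [← Real.exp_nat_mul, mul_comm]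
    rw [one_pow, mul_one] at h2
    calc (R.choose j : ℝ) * a ^ j = a ^ j * (R.choose j : ℝ) := mul_comm _ _
      _ ≤ _ := h2
      _ = (a + 1) ^ R := h1.symm
      _ ≤ _ := h3

section num

variable (t δ : ℕ) (u : ℝ)

theorem num_i (ht : 0 < t) (hδ : 2 ≤ δ) (hδt : δ ^ 2 ≤ 2 * t) (q : ℕ)
    (hq : 2 * (t : ℝ) * Real.log δ / δ ^ 2 ≤ q) :
    (1 - (δ : ℝ) ^ 2 / (2 * t)) ^ q * t ≤ ((2 * t / δ : ℕ) : ℝ) := by
  have htR : (0 : ℝ) < t := by exact_mod_cast ht
  have hδR : (0 : ℝ) < δ := by exact_mod_cast (by omega : 0 < δ)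
  have hδtR : (δ : ℝ) ^ 2 ≤ 2 * t := by exact_mod_cast hδt
  set β : ℝ := (δ : ℝ) ^ 2 / (2 * t) with hβ
  have hβ0 : 0 ≤ β := by positivity
  have hβ1 : β ≤ 1 := by rw [hβ, div_le_one (by positivity)]; exact hδtR
  have h1 : (1 - β) ^ q ≤ 1 / δ := by
    have h2 : 1 - β ≤ Real.exp (-β) := by
      have := Real.add_one_le_exp (-β)
      linarith
    have h3 : (1 - β) ^ q ≤ Real.exp (-β) ^ q := by
      exact pow_le_pow_left₀ (by linarith) h2 q
    have h4 : Real.exp (-β) ^ q = Real.exp (-(β * q)) := by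
      rw [← Real.exp_nat_mul]; congr 1; ring
    have h5 : Real.log δ ≤ β * q := by
      have h6 : β * (2 * (t : ℝ) * Real.log δ / δ ^ 2) = Real.log δ := by
        rw [hβ]; field_simp
      rw [← h6]
      gcongr
    have h7 : Real.exp (-(β * q)) ≤ Real.exp (-Real.log δ) := by
      apply Real.exp_le_exp.2; linarith
    have h8 : Real.exp (-Real.log δ) = 1 / δ := by
      rw [Real.exp_neg, Real.exp_log hδR, one_div]
    linarith
  have h9 : t ≤ δ * (2 * t / δ) := by
    have h10 : δ ≤ t := by nlinarith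
    have h11 := Nat.div_add_mod (2 * t) δ
    have h12 := Nat.mod_lt (2 * t) (by omega : δ > 0)
    omega
  have h13 : (t : ℝ) ≤ δ * ((2 * t / δ : ℕ) : ℝ) := by exact_mod_cast h9
  calc (1 - β) ^ q * t ≤ 1 / δ * t := by gcongr
    _ = t / δ := by ring
    _ ≤ _ := by rw [div_le_iff₀ hδR]; linarith

theorem num_log (hu : 1 ≤ u) (htu : (t : ℝ) = u ^ 8) : Real.log t ≤ 8 * u := by
  rw [htu, Real.log_pow]
  have := Real.log_le_sub_one_of_pos (by linarith : 0 < u)
  push_cast
  linarith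

theorem num_ii (hu : 1 ≤ u) (htu : (t : ℝ) = u ^ 8) (ht : 0 < t) (hδ : 2 ≤ δ)
    (hδt : δ ^ 2 ≤ 2 * t) (hδu : u ^ 3 ≤ δ) (q : ℕ)
    (hq : (q : ℝ) ≤ 2 * (t : ℝ) * Real.log δ / δ ^ 2 + 1) :
    ((∑ s ∈ range (q + 1), t.choose s * (2 * t / δ).choose (δ + 1 - s) : ℕ) : ℝ) ≤
      Real.exp (161 * u ^ 4) := by
  have htR : (0 : ℝ) < t := by exact_mod_cast ht
  have ht1 : (1 : ℝ) ≤ t := by exact_mod_cast ht
  have hδR : (0 : ℝ) < δ := by exact_mod_cast (by omega : 0 < δ)
  have hδ1 : (1 : ℝ) ≤ δ := by exact_mod_cast (by omega : 1 ≤ δ)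
  have hδtR : (δ : ℝ) ^ 2 ≤ 2 * t := by exact_mod_cast hδt
  have hu0 : (0 : ℝ) < u := by linarith
  set β : ℝ := (δ : ℝ) ^ 2 / (2 * t) with hβ
  have hβ0 : 0 < β := by positivity
  have hβ1 : β ≤ 1 := by rw [hβ, div_le_one (by positivity)]; exact hδtR
  set R := 2 * t / δ with hR
  have hRle : (R : ℝ) ≤ 2 * t / δ := by
    rw [le_div_iff₀ hδR]
    have : R * δ ≤ 2 * t := Nat.div_mul_le_self _ _
    exact_mod_cast this
  set v := Real.sqrt (2 * t) with hv
  have hv2 : v ^ 2 = 2 * t := Real.sq_sqrt (by positivity)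
  have hv0 : 0 < v := Real.sqrt_pos.2 (by positivity)
  have hδv : (δ : ℝ) ≤ v := by
    apply Real.le_sqrt_of_sq_le; exact hδtR
  have hvu : v ≤ 3 / 2 * u ^ 4 := by
    rw [hv]
    apply Real.sqrt_le_iff.2
    refine ⟨by positivity, ?_⟩
    rw [htu]
    nlinarith [pow_pos hu0 8]
  have hch : ∀ j, j ≤ δ + 1 → (R.choose j : ℝ) ≤ Real.exp (5 * v) := by
    intro j hj
    have h1 := choose_exp R j β hβ0.le
    have h2 : β ^ (2 * δ) ≤ β ^ j := pow_le_pow_of_le_one hβ0.le hβ1 (by omega)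
    have h3 : β * R ≤ v := by
      calc β * R ≤ β * (2 * t / δ) := by gcongr
        _ = δ := by rw [hβ]; field_simp
        _ ≤ v := hδv
    have h4 : 1 ≤ β ^ (2 * δ) * Real.exp (4 * v) := by
      have h5 : 1 ≤ β * Real.exp (2 * (v / δ)) := by
        have h6 : v / δ ≤ Real.exp (v / δ) := by
          have := Real.add_one_le_exp (v / δ)
          linarith
        have h7 : Real.exp (2 * (v / δ)) = Real.exp (v / δ) ^ 2 := by
          rw [← Real.exp_nat_mul]; norm_num
        have h8 : β * (v / δ) ^ 2 = 1 := by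
          rw [div_pow, hv2, hβ]; field_simp
        rw [h7, ← h8]
        gcongr
      calc (1 : ℝ) = 1 ^ (2 * δ) := (one_pow _).symm
        _ ≤ (β * Real.exp (2 * (v / δ))) ^ (2 * δ) := by gcongr
        _ = β ^ (2 * δ) * Real.exp (4 * v) := by
            rw [mul_pow, ← Real.exp_nat_mul]
            congr 2
            push_cast
            field_simp
            ring
    have h9 : (0 : ℝ) ≤ R.choose j := Nat.cast_nonneg _
    calc (R.choose j : ℝ) = R.choose j * 1 := (mul_one _).symm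
      _ ≤ R.choose j * (β ^ (2 * δ) * Real.exp (4 * v)) := by gcongr
      _ ≤ R.choose j * (β ^ j * Real.exp (4 * v)) := by gcongr
      _ = (R.choose j * β ^ j) * Real.exp (4 * v) := by ring
      _ ≤ Real.exp (β * R) * Real.exp (4 * v) := by gcongr
      _ = Real.exp (β * R + 4 * v) := (Real.exp_add _ _).symm
      _ ≤ Real.exp (5 * v) := by apply Real.exp_le_exp.2; linarith
  have hlog : Real.log t ≤ 8 * u := num_log t u hu htu
  have hlog0 : 0 ≤ Real.log t := Real.log_nonneg ht1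
  have hterm : ∀ s ∈ range (q + 1), ((t.choose s * R.choose (δ + 1 - s) : ℕ) : ℝ) ≤
      Real.exp (q * Real.log t + 5 * v) := by
    intro s hs
    rw [mem_range] at hs
    have h1 : (t.choose s : ℝ) ≤ (t : ℝ) ^ s := by exact_mod_cast Nat.choose_le_pow t s
    have h2 : (t : ℝ) ^ s ≤ (t : ℝ) ^ q := pow_le_pow_right₀ ht1 (by omega)
    have h3 : (t : ℝ) ^ q = Real.exp (q * Real.log t) := by
      rw [Real.exp_nat_mul, Real.exp_log htR]
    rw [Nat.cast_mul, Real.exp_add, ← h3]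
    have := hch (δ + 1 - s) (by omega)
    gcongr
    linarith
  have hq' : (q : ℝ) ≤ 17 * u ^ 3 := by
    have h1 : Real.log δ ≤ Real.log t := by
      apply Real.log_le_log hδR
      have h10 : δ ≤ t := by nlinarith
      exact_mod_cast h10
    have h2 : Real.log δ ≤ 8 * u := by linarith
    have h3 : 2 * (t : ℝ) * Real.log δ / δ ^ 2 ≤ 16 * u ^ 3 := by
      rw [div_le_iff₀ (by positivity), htu]
      have h4 : (u ^ 3) ^ 2 ≤ (δ : ℝ) ^ 2 := by gcongr
      calc 2 * u ^ 8 * Real.log δ ≤ 2 * u ^ 8 * (8 * u) := by gcongr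
        _ = 16 * u ^ 3 * (u ^ 3) ^ 2 := by ring
        _ ≤ 16 * u ^ 3 * (δ : ℝ) ^ 2 := by gcongr
    have h5 : (1 : ℝ) ≤ u ^ 3 := one_le_pow₀ hu
    linarith
  rw [Nat.cast_sum]
  calc ∑ s ∈ range (q + 1), ((t.choose s * R.choose (δ + 1 - s) : ℕ) : ℝ)
      ≤ ∑ s ∈ range (q + 1), Real.exp (q * Real.log t + 5 * v) := sum_le_sum hterm
    _ = (q + 1) * Real.exp (q * Real.log t + 5 * v) := by
        rw [sum_const, card_range, nsmul_eq_mul]; push_cast; ring
    _ ≤ Real.exp q * Real.exp (q * Real.log t + 5 * v) := by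
        gcongr
        exact Real.add_one_le_exp _
    _ = Real.exp (q + (q * Real.log t + 5 * v)) := (Real.exp_add _ _).symm
    _ ≤ Real.exp (161 * u ^ 4) := by
        apply Real.exp_le_exp.2
        have h6 : (q : ℝ) * (1 + Real.log t) ≤ 17 * u ^ 3 * (9 * u) := by
          have : 1 + Real.log t ≤ 9 * u := by linarith
          gcongr
        have h7 : (0 : ℝ) ≤ u ^ 4 := by positivity
        nlinarith [h6, h7, hvu]

theorem num_small (hu : 1 ≤ u) (htu : (t : ℝ) = u ^ 8) (ht : 0 < t) (d : ℕ)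
    (hd : (d : ℝ) ≤ 2 * u ^ 3) : ((t.choose d : ℕ) : ℝ) ≤ Real.exp (161 * u ^ 4) := by
  have htR : (0 : ℝ) < t := by exact_mod_cast ht
  have hu0 : (0 : ℝ) < u := by linarith
  have h1 : (t.choose d : ℝ) ≤ (t : ℝ) ^ d := by exact_mod_cast Nat.choose_le_pow t d
  have h3 : (t : ℝ) ^ d = Real.exp (d * Real.log t) := by
    rw [Real.exp_nat_mul, Real.exp_log htR]
  rw [h3] at h1
  refine h1.trans (Real.exp_le_exp.2 ?_)
  have hlog := num_log t u hu htu
  have hlog0 : 0 ≤ Real.log t := Real.log_nonneg (by exact_mod_cast ht)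
  calc (d : ℝ) * Real.log t ≤ 2 * u ^ 3 * (8 * u) := by gcongr
    _ = 16 * u ^ 4 := by ring
    _ ≤ 161 * u ^ 4 := by
      have : (0 : ℝ) ≤ u ^ 4 := by positivity
      linarith

end num

theorem rowA (h1 : StA1) (h2 : StA2) : StA := by
  refine ⟨163, by norm_num, ?_⟩
  intro V _ G hC4 T hT
  classical
  have _ : Fintype V := Fintype.ofFinite V
  rcases Nat.eq_zero_or_pos T.card with ht0 | ht
  · have hT0 : T = ∅ := card_eq_zero.1 ht0
    subst hT0
    have : nbhds G (∅ : Finset V) ⊆ {∅} := by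
      rintro I ⟨hI, -⟩
      simpa using hI
    have h3 := Set.ncard_le_ncard this
    rw [Set.ncard_singleton] at h3
    have h4 : ((nbhds G (∅ : Finset V)).ncard : ℝ) ≤ 1 := by exact_mod_cast h3
    refine h4.trans (Real.one_le_exp ?_)
    positivity
  obtain ⟨t, htdef⟩ : ∃ t : ℕ, t = T.card := ⟨_, rfl⟩
  rw [← htdef] at ht ⊢
  have htR : (0 : ℝ) < t := by exact_mod_cast ht
  obtain ⟨u, hu⟩ : ∃ u : ℝ, u = (t : ℝ) ^ (1 / 8 : ℝ) := ⟨_, rfl⟩
  have htu : (t : ℝ) = u ^ 8 := by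
    rw [hu, ← Real.rpow_natCast, ← Real.rpow_mul htR.le]
    norm_num
  have hu4 : (t : ℝ) ^ (1 / 2 : ℝ) = u ^ 4 := by
    rw [hu, ← Real.rpow_natCast, ← Real.rpow_mul htR.le]
    norm_num
  have hu1 : 1 ≤ u := hu ▸ Real.one_le_rpow (by exact_mod_cast ht) (by norm_num)
  have hu0 : (0 : ℝ) < u := by linarith
  rw [hu4]
  let H : V → V → Prop := fun x y => x ≠ y ∧ ∃ w, G.Adj w x ∧ G.Adj w y
  let P : Finset V → Prop := fun I => ∀ x ∈ I, ∀ y ∈ I, x ≠ y → ¬ H x y
  let D : Finset ℕ := (range (t + 1)).filter (fun d => ∃ I ∈ nbhds G T, I.card = d)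
  have key : ∀ d ∈ D, ((((T.powersetCard d).filter P).card : ℕ) : ℝ) ≤ Real.exp (161 * u ^ 4) := by
    intro d hd
    simp only [D, mem_filter, mem_range] at hd
    obtain ⟨hdt, I₀, hI₀, hId⟩ := hd
    have hle : (((T.powersetCard d).filter P).card : ℝ) ≤ (t.choose d : ℕ) := by
      have := card_filter_le (T.powersetCard d) P
      rw [card_powersetCard, ← htdef] at this
      exact_mod_cast this
    by_cases hs : (d : ℝ) ≤ 2 * u ^ 3
    · exact hle.trans (num_small t u hu1 htu ht d hs)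
    · have hs' : 2 * u ^ 3 < d := not_le.1 hs
      have hu3 : (1 : ℝ) ≤ u ^ 3 := one_le_pow₀ hu1
      have hd3 : 3 ≤ d := by
        have : (2 : ℝ) < d := by linarith
        have h : 2 < d := by exact_mod_cast this
        omega
      obtain ⟨δ, rfl⟩ : ∃ δ, d = δ + 1 := ⟨d - 1, by omega⟩
      have hδ2 : 2 ≤ δ := by omega
      have hδu : u ^ 3 ≤ δ := by
        push_cast at hs'
        linarith
      have hdeg : ∀ x ∈ T, δ ≤ (univ.filter (fun y => G.Adj x y)).card := by
        intro x hx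
        have h3 := hI₀.2.1 x hx
        rw [hId] at h3
        have h4 : ({y | G.Adj x y} : Set V).ncard = (univ.filter (fun y => G.Adj x y)).card := by
          rw [← Set.ncard_coe_finset]
          congr 1
          ext y; simp
        rw [h4] at h3
        omega
      have hTne : T.Nonempty := card_pos.1 (htdef ▸ ht)
      have hA2 := h2 V G hC4 T hT δ (by omega) hdeg
      rw [← htdef] at hA2
      have hβ1 : (δ : ℝ) ^ 2 / (2 * t) ≤ 1 := by
        obtain ⟨x, hx, hle2⟩ := hA2 T (Subset.refl _) (by rw [← htdef]; nlinarith) hTne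
        rw [← htdef] at hle2
        have h5 : ((T.filter (fun y => x ≠ y ∧ ∃ w, G.Adj w x ∧ G.Adj w y)).card : ℝ) ≤ t := by
          rw [htdef]
          exact_mod_cast card_filter_le T _
        have h6 : (δ : ℝ) ^ 2 / (2 * t) * t ≤ 1 * t := by
          rw [one_mul]
          exact hle2.trans h5
        exact le_of_mul_le_mul_right h6 htR
      have hδt : δ ^ 2 ≤ 2 * t := by
        rw [div_le_one (by positivity)] at hβ1
        exact_mod_cast hβ1
      set q := ⌈2 * (t : ℝ) * Real.log δ / δ ^ 2⌉₊ with hq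
      have hx0 : 0 ≤ 2 * (t : ℝ) * Real.log δ / δ ^ 2 := by
        have : 0 ≤ Real.log δ := Real.log_nonneg (by exact_mod_cast (by omega : 1 ≤ δ))
        positivity
      have hq1 : 2 * (t : ℝ) * Real.log δ / δ ^ 2 ≤ q := Nat.le_ceil _
      have hq2 : (q : ℝ) ≤ 2 * (t : ℝ) * Real.log δ / δ ^ 2 + 1 := (Nat.ceil_lt_add_one hx0).le
      have hi := num_i t δ ht hδ2 hδt q hq1
      have hii := num_ii t δ u hu1 htu ht hδ2 hδt hδu q hq2
      have hH : ∀ x y, H x y → H y x := fun x y ⟨h, w, hx, hy⟩ => ⟨h.symm, w, hy, hx⟩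
      have hA1 := h1 V H hH ((δ : ℝ) ^ 2 / (2 * t)) (2 * t / δ) (by positivity) hβ1 T (by
        intro B' hB' hR
        have h7 : 2 * t ≤ δ * B'.card := by
          have h8 : 2 * t < δ * (2 * t / δ + 1) := by
            have h11 := Nat.div_add_mod (2 * t) δ
            have h12 := Nat.mod_lt (2 * t) (by omega : δ > 0)
            rw [mul_add, mul_one]; omega
          have h9 : δ * (2 * t / δ + 1) ≤ δ * B'.card := Nat.mul_le_mul_left _ hR
          exact (h8.trans_le h9).le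
        have hne : B'.Nonempty := card_pos.1 (lt_of_le_of_lt (Nat.zero_le _) hR)
        obtain ⟨x, hx, hle2⟩ := hA2 B' hB' h7 hne
        refine ⟨x, hx, ?_⟩
        convert hle2) q (δ + 1) (by rw [← htdef]; exact hi)
      rw [← htdef] at hA1
      refine le_trans ?_ hii
      exact_mod_cast hA1
  have hsub : nbhds G T ⊆ ↑(D.biUnion (fun d => (T.powersetCard d).filter P)) := by
    intro I hI
    have hIT : I ⊆ T := hI.1
    simp only [coe_biUnion, Set.mem_iUnion, mem_coe, mem_filter, mem_powersetCard, D, mem_range]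
    refine ⟨I.card, ⟨by have := card_le_card hIT; omega, I, hI, rfl⟩, ⟨hIT, rfl⟩, ?_⟩
    intro x hx y hy hne hH
    exact hI.2.2 x hx y hy hne hH.2
  have hcard := Set.ncard_le_ncard hsub (finite_toSet _)
  rw [Set.ncard_coe_finset] at hcard
  have hcard2 : ((nbhds G T).ncard : ℝ) ≤ ∑ d ∈ D, (((T.powersetCard d).filter P).card : ℝ) := by
    have := hcard.trans card_biUnion_le
    exact_mod_cast this
  calc ((nbhds G T).ncard : ℝ) ≤ ∑ d ∈ D, (((T.powersetCard d).filter P).card : ℝ) := hcard2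
    _ ≤ ∑ d ∈ D, Real.exp (161 * u ^ 4) := sum_le_sum key
    _ = D.card * Real.exp (161 * u ^ 4) := by rw [sum_const, nsmul_eq_mul]
    _ ≤ Real.exp (2 * u ^ 4) * Real.exp (161 * u ^ 4) := by
        gcongr
        have h10 : D.card ≤ t + 1 := by
          have := card_filter_le (range (t + 1)) (fun d => ∃ I ∈ nbhds G T, I.card = d)
          rwa [card_range] at this
        have h11 : (D.card : ℝ) ≤ t + 1 := by exact_mod_cast h10
        have h12 : Real.exp (2 * u ^ 4) = Real.exp (u ^ 4) ^ 2 := by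
          rw [← Real.exp_nat_mul]; norm_num
        have h13 := Real.add_one_le_exp (u ^ 4)
        have h14 : (0 : ℝ) ≤ u ^ 4 := by positivity
        rw [h12]
        calc (D.card : ℝ) ≤ t + 1 := h11
          _ = (u ^ 4) ^ 2 + 1 := by rw [htu]; ring
          _ ≤ (u ^ 4 + 1) ^ 2 := by nlinarith
          _ ≤ Real.exp (u ^ 4) ^ 2 := by gcongr
    _ = Real.exp (163 * u ^ 4) := by rw [← Real.exp_add]; congr 1; ring

end Vale.Agent.P183.R2.H652.KW
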