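import Vale.Agent.P183.R2.H668.KW.Spec

set_option autoImplicit false

namespace Vale.Agent.P183.R2.H652.KW

open Finset Vale.Agent.P183.R2.H668.KW

theorem rowA2 : StA2 := by
  intro V _ _ G _ hC4 T hT δ hδ hdeg B hB hBT hBne
  have ht : 0 < T.card := lt_of_lt_of_le hBne.card_pos (card_le_card hB)
  have htR : (0 : ℝ) < T.card := by exact_mod_cast ht
  have hbR : (0 : ℝ) < B.card := by exact_mod_cast hBne.card_pos
  let g : V → ℕ := fun w => (B.filter (fun y => G.Adj w y)).card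
  -- step 1: local count
  have h1 : ∀ x ∈ B, ∑ w ∈ univ.filter (fun w => G.Adj w x), ((g w : ℝ) - 1) ≤
      ((B.filter (fun y => x ≠ y ∧ ∃ w, G.Adj w x ∧ G.Adj w y)).card : ℝ) := by
    intro x hx
    have hsub : (univ.filter (fun w => G.Adj w x)).biUnion
        (fun w => (B.filter (fun y => G.Adj w y)).erase x) ⊆
        B.filter (fun y => x ≠ y ∧ ∃ w, G.Adj w x ∧ G.Adj w y) := by
      intro y hy
      simp only [mem_biUnion, mem_filter, mem_univ, true_and, mem_erase] at hy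
      obtain ⟨w, hwx, hyx, hyB, hwy⟩ := hy
      simp only [mem_filter]
      exact ⟨hyB, fun h => hyx h.symm, w, hwx, hwy⟩
    have hdisj : ∀ w ∈ univ.filter (fun w => G.Adj w x), ∀ w' ∈ univ.filter (fun w => G.Adj w x),
        w ≠ w' → Disjoint ((B.filter (fun y => G.Adj w y)).erase x)
          ((B.filter (fun y => G.Adj w' y)).erase x) := by
      intro w hw w' hw' hne
      simp only [mem_filter, mem_univ, true_and] at hw hw'
      rw [Finset.disjoint_left]
      intro y hy hy'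
      simp only [mem_erase, mem_filter] at hy hy'
      exact hy.1 (hC4 w w' x y hne hw hw' hy.2.2 hy'.2.2).symm
    have hcard := card_le_card hsub
    rw [card_biUnion hdisj] at hcard
    have hc2 : ((∑ w ∈ univ.filter (fun w => G.Adj w x),
        ((B.filter (fun y => G.Adj w y)).erase x).card : ℕ) : ℝ) ≤
        ((B.filter (fun y => x ≠ y ∧ ∃ w, G.Adj w x ∧ G.Adj w y)).card : ℝ) := by
      exact_mod_cast hcard
    refine le_trans (le_of_eq ?_) hc2
    rw [Nat.cast_sum]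
    refine sum_congr rfl (fun w hw => ?_)
    simp only [mem_filter, mem_univ, true_and] at hw
    have hxm : x ∈ B.filter (fun y => G.Adj w y) := by
      simp only [mem_filter]; exact ⟨hx, hw⟩
    have := card_erase_add_one hxm
    have h3 : (((B.filter (fun y => G.Adj w y)).erase x).card : ℝ) + 1 = g w := by
      exact_mod_cast this
    linarith
  -- step 2: double counting
  have h2 : ∀ f : V → ℝ, ∑ x ∈ B, ∑ w ∈ univ.filter (fun w => G.Adj w x), f w =
      ∑ w, (g w : ℝ) * f w := by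
    intro f
    simp_rw [sum_filter]
    rw [sum_comm]
    refine sum_congr rfl (fun w _ => ?_)
    rw [← sum_filter, sum_const, nsmul_eq_mul]
  have hout : ∀ w, w ∉ T → g w = 0 := by
    intro w hw
    refine card_eq_zero.2 (filter_eq_empty_iff.2 (fun y _ h => hw (hT _ _ h)))
  have hST : ∑ w, (g w : ℝ) = ∑ w ∈ T, (g w : ℝ) := by
    symm
    refine sum_subset (subset_univ _) (fun w _ hw => ?_)
    simp [hout w hw]
  have hST2 : ∑ w, (g w : ℝ) * ((g w : ℝ) - 1) = ∑ w ∈ T, (g w : ℝ) ^ 2 - ∑ w ∈ T, (g w : ℝ) := by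
    rw [← sum_sub_distrib]
    symm
    have : ∑ w ∈ T, ((g w : ℝ) ^ 2 - (g w : ℝ)) = ∑ w ∈ T, (g w : ℝ) * ((g w : ℝ) - 1) :=
      sum_congr rfl (fun w _ => by ring)
    rw [this]
    refine sum_subset (subset_univ _) (fun w _ hw => ?_)
    simp [hout w hw]
  have hS : (δ : ℝ) * B.card ≤ ∑ w ∈ T, (g w : ℝ) := by
    rw [← hST]
    have := h2 (fun _ => 1)
    simp only [mul_one] at this
    rw [← this]
    have h5 : ∀ x ∈ B, (δ : ℝ) ≤ ∑ w ∈ univ.filter (fun w => G.Adj w x), (1 : ℝ) := by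
      intro x hx
      rw [sum_const, nsmul_eq_mul, mul_one]
      have h6 := hdeg x (hB hx)
      have h7 : univ.filter (fun y => G.Adj x y) = univ.filter (fun w => G.Adj w x) := by
        ext y; simp [G.adj_comm]
      rw [h7] at h6
      exact_mod_cast h6
    calc (δ : ℝ) * B.card = ∑ x ∈ B, (δ : ℝ) := by rw [sum_const, nsmul_eq_mul]; ring
      _ ≤ _ := sum_le_sum h5
  have hCS : (∑ w ∈ T, (g w : ℝ)) ^ 2 ≤ T.card * ∑ w ∈ T, (g w : ℝ) ^ 2 :=
    sq_sum_le_card_mul_sum_sq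
  have hS2 : 2 * (T.card : ℝ) ≤ ∑ w ∈ T, (g w : ℝ) := by
    have : (2 : ℝ) * T.card ≤ δ * B.card := by exact_mod_cast hBT
    linarith
  set S := ∑ w ∈ T, (g w : ℝ) with hSdef
  have hfin : (δ : ℝ) ^ 2 / (2 * T.card) * B.card * B.card ≤
      ∑ w, (g w : ℝ) * ((g w : ℝ) - 1) := by
    rw [hST2]
    have hA : S ^ 2 / T.card ≤ ∑ w ∈ T, (g w : ℝ) ^ 2 := by
      rw [div_le_iff₀ htR]; linarith
    have hBB : S ^ 2 / (2 * T.card) ≤ S ^ 2 / T.card - S := by
      rw [div_le_iff₀ (by positivity)]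
      have : (S ^ 2 / T.card - S) * (2 * T.card) = 2 * S ^ 2 - 2 * T.card * S := by
        field_simp
      rw [this]
      nlinarith [hS2, htR]
    have hC : (δ : ℝ) ^ 2 / (2 * T.card) * B.card * B.card = (δ * B.card) ^ 2 / (2 * T.card) := by
      ring
    have hD : ((δ : ℝ) * B.card) ^ 2 / (2 * T.card) ≤ S ^ 2 / (2 * T.card) := by
      gcongr
    rw [hC]
    linarith
  have hsum : ∑ x ∈ B, ((δ : ℝ) ^ 2 / (2 * T.card) * B.card) ≤
      ∑ x ∈ B, ((B.filter (fun y => x ≠ y ∧ ∃ w, G.Adj w x ∧ G.Adj w y)).card : ℝ) := by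
    refine le_trans ?_ (sum_le_sum h1)
    rw [h2 (fun w => (g w : ℝ) - 1), sum_const, nsmul_eq_mul]
    linarith
  obtain ⟨x, hx, hle⟩ := exists_le_of_sum_le hBne hsum
  exact ⟨x, hx, hle⟩

end Vale.Agent.P183.R2.H652.KW
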